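import Crest.Agent.R177.LevelCount.Rz

/-!
The four counting stages.
-/

set_option autoImplicit false

namespace Crest.Agent.R177.LevelCountAux

open Equiv

variable {T C U W : Type} [Fintype T] [DecidableEq T] [Fintype C] [DecidableEq C] [Fintype U]
  [DecidableEq U] [Fintype W] [DecidableEq W] {Y : SlotSys T C U W} {π : Perm T}
  {τ : T → T → C → C} {q N Q : ℕ} {z : U} {K : ℕ} {P : Pat K}
  {e : Y.Matching → Fin K × ℕ → Y.E} {j : ℕ}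

open Classical in
/-- free connectors -/
noncomputable def Fr (P : Pat K) (j : ℕ) : Finset (Fin K × ℕ) :=
  (darts P.len).filter (fun x => P.repW x ∧ j ≤ P.mW x ∧ ¬ P.det x)

open Classical in
/-- run starts -/
noncomputable def Rn (P : Pat K) (j : ℕ) : Finset (Fin K × ℕ) :=
  (P.J j).filter (fun x => x.2 = 0 ∨ (x.1, x.2 - 1) ∉ P.J j)

open Classical in
/-- first darts at `U` vertices -/
noncomputable def RU (P : Pat K) (j : ℕ) : Finset (Fin K × ℕ) :=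
  (P.J j).filter (fun x => P.repU j x)

open Classical in
/-- first darts at connectors -/
noncomputable def RW (P : Pat K) (j : ℕ) : Finset (Fin K × ℕ) :=
  (darts P.len).filter (fun x => P.repW x ∧ j ≤ P.mW x)

theorem stage1 (hB : Y.Bounds π τ q N) (hQ1 : Fintype.card T ≤ Q) (hQ2 : (blkPairs π).card ≤ Q)
    (𝒜 : Finset Y.Matching) (h : ∀ σ ∈ 𝒜, IsRz Y z P σ (e σ)) :
    cnt 𝒜 (res (Fr P j) (fun σ x => ((e σ x).1.2, (e σ (snd P x)).1.2))) ≤ Q ^ P.nFree j := by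
  classical
  refine le_trans (cnt_res_le 𝒜 _ _ (fun _ => Q) fun x hx => ?_) ?_
  · have hx1 : x ∈ darts P.len := (Finset.mem_filter.1 hx).1
    rcases snd_spec P x with ⟨g1, g2, g3⟩ | ⟨g1, -⟩
    · refine ⟨blkPairs π, hQ2, fun σ hσ => ?_⟩
      have w1 := ((h σ hσ).hW x hx1 _ g1).1 g2
      have n1 : e σ x ≠ e σ (snd P x) := fun a => g3 (((h σ hσ).hE x hx1 _ g1).2 a)
      simp only [blkPairs, Finset.mem_filter, Finset.mem_univ, true_and]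
      exact ⟨letter_ne hB σ w1 n1, letter_rel hB σ w1 n1⟩
    · refine ⟨Finset.univ.image (fun t : T => (t, t)),
        Finset.card_image_le.trans (by simpa using hQ1), fun σ _ => ?_⟩
      rw [g1]
      exact Finset.mem_image.2 ⟨_, Finset.mem_univ _, rfl⟩
  · rw [Finset.prod_const]
    exact le_of_eq rfl

omit [Fintype T] [DecidableEq T] [Fintype U] [DecidableEq U] [Fintype W] [DecidableEq W]
  [DecidableEq C] in
theorem stage2 (𝒜 : Finset Y.Matching) :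
    cnt 𝒜 (res (Rn P j) (fun σ x => Y.col (e σ x).1.1)) ≤ Fintype.card C ^ P.nRun j := by
  classical
  refine le_trans (cnt_res_le 𝒜 _ _ (fun _ => Fintype.card C) fun x _ =>
    ⟨Finset.univ, le_of_eq rfl, fun _ _ => Finset.mem_univ _⟩) ?_
  rw [Finset.prod_const]
  exact le_of_eq rfl

theorem card_U_le (hB : Y.Bounds π τ q N) (t : T) (c : C) :
    (Finset.univ.filter (fun u : U => Y.col u = c ∧ t ∈ Y.S u)).card ≤ (q + 1) * N + 1 := by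
  refine le_trans ?_ (hB.upper (t, c))
  refine Finset.card_le_card_of_surjOn (fun ε : Y.E => ε.1.1) ?_
  intro u hu
  obtain ⟨h1, h2⟩ := (Finset.mem_filter.1 (Finset.mem_coe.1 hu)).2
  refine ⟨⟨(u, t), h2⟩, ?_, rfl⟩
  simp [SlotSys.cls, h1]

theorem card_W_le (hB : Y.Bounds π τ q N) (ξ : T × C) :
    (Finset.univ.filter (fun w : W => ξ ∈ Y.slots w)).card ≤ (q + 1) * N + 1 := by
  refine le_trans ?_ (hB.upper ξ)
  rw [hB.card_eq ξ]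
  refine Finset.card_le_card_of_surjOn (fun s : Y.WS => s.1.1) ?_
  intro w hw
  have h1 := (Finset.mem_filter.1 (Finset.mem_coe.1 hw)).2
  refine ⟨⟨(w, ξ), h1⟩, ?_, rfl⟩
  simp

theorem stage3 (hB : Y.Bounds π τ q N) (𝒜 : Finset Y.Matching)
    (h : ∀ σ ∈ 𝒜, IsRz Y z P σ (e σ)) (ℓ : Fin K × ℕ → T) (κ : Fin K × ℕ → C)
    (hl : ∀ σ ∈ 𝒜, ∀ x ∈ P.J j, (e σ x).1.2 = ℓ x)
    (hc : ∀ σ ∈ 𝒜, ∀ x ∈ P.J j, Y.col (e σ x).1.1 = κ x) :
    cnt 𝒜 (res (RU P j) (fun σ x => (e σ x).1.1)) ≤ (N + 1) ^ P.nU j * (q + 1) ^ P.nLeaf j := by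
  classical
  refine le_trans (cnt_res_le 𝒜 _ _ (fun x => (if P.uPos x ∉ P.Z then N + 1 else 1) *
    (if ∀ y ∈ P.J j, P.sameU x y → P.sameE x y then q + 1 else 1)) fun x hx => ?_) ?_
  · have hx1 : x ∈ P.J j := (Finset.mem_filter.1 hx).1
    have hx2 := (mem_J.1 hx1).1
    by_cases hz : P.uPos x ∈ P.Z
    · refine ⟨{z}, ?_, fun σ hσ => Finset.mem_singleton.2 (((h σ hσ).hZ x hx2).1 hz)⟩
      rw [Finset.card_singleton, if_neg (not_not.2 hz), one_mul]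
      split_ifs <;> omega
    by_cases hleaf : ∀ y ∈ P.J j, P.sameU x y → P.sameE x y
    · refine ⟨Finset.univ.filter (fun u : U => Y.col u = κ x ∧ ℓ x ∈ Y.S u), ?_, fun σ hσ => ?_⟩
      · rw [if_pos hz, if_pos hleaf]
        refine (card_U_le hB _ _).trans ?_
        nlinarith
      · refine Finset.mem_filter.2 ⟨Finset.mem_univ _, hc σ hσ x hx1, ?_⟩
        rw [← hl σ hσ x hx1]
        exact (e σ x).2
    · have hleaf' := hleaf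
      push Not at hleaf'
      obtain ⟨y, hy, hs, hne⟩ := hleaf'
      have hy2 := (mem_J.1 hy).1
      rcases 𝒜.eq_empty_or_nonempty with rfl | ⟨σ0, hσ0⟩
      · exact ⟨∅, by simp, by simp⟩
      have hst : ℓ x ≠ ℓ y := by
        intro hh
        refine hne (((h σ0 hσ0).hE x hx2 y hy2).2 (Subtype.ext (Prod.ext ?_ ?_)))
        · exact ((h σ0 hσ0).hU x hx2 y hy2).1 hs
        · rw [hl σ0 hσ0 x hx1, hl σ0 hσ0 y hy, hh]
      refine ⟨Finset.univ.filter (fun u : U => Y.col u = κ x ∧ ℓ x ∈ Y.S u ∧ ℓ y ∈ Y.S u), ?_,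
        fun σ hσ => ?_⟩
      · rw [if_pos hz, if_neg hleaf, mul_one]
        exact hB.pair _ _ _ hst
      · refine Finset.mem_filter.2 ⟨Finset.mem_univ _, hc σ hσ x hx1, ?_, ?_⟩
        · rw [← hl σ hσ x hx1]
          exact (e σ x).2
        · rw [← hl σ hσ y hy, ((h σ hσ).hU x hx2 y hy2).1 hs]
          exact (e σ y).2
  · rw [Finset.prod_mul_distrib, Finset.prod_ite, Finset.prod_ite]
    simp only [Finset.prod_const, one_pow, mul_one, RU, Finset.filter_filter]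
    refine le_of_eq ?_
    unfold Pat.nU Pat.nLeaf
    congr

theorem stage4 (hB : Y.Bounds π τ q N) (hj : 1 ≤ j) (𝒜 : Finset Y.Matching)
    (h : ∀ σ ∈ 𝒜, IsRz Y z P σ (e σ)) (ℓ : Fin K × ℕ → T) (κ : Fin K × ℕ → C)
    (hl : ∀ σ ∈ 𝒜, ∀ x ∈ P.J j, (e σ x).1.2 = ℓ x)
    (hc : ∀ σ ∈ 𝒜, ∀ x ∈ P.J j, Y.col (e σ x).1.1 = κ x) :
    cnt 𝒜 (res (RW P j) (fun σ x => (σ.1 (e σ x)).1.1)) ≤ ((q + 1) * N + 1) ^ P.nW j := by
  classical
  refine le_trans (cnt_res_le 𝒜 _ _ (fun _ => (q + 1) * N + 1) fun x hx => ?_) ?_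
  · obtain ⟨hx1, -, hx3⟩ := Finset.mem_filter.1 hx
    obtain ⟨y, hy, hs⟩ := exists_mem_J_of_le_mW hj hx3
    refine ⟨Finset.univ.filter (fun w : W => (ℓ y, κ y) ∈ Y.slots w), card_W_le hB _,
      fun σ hσ => Finset.mem_filter.2 ⟨Finset.mem_univ _, ?_⟩⟩
    rw [((h σ hσ).hW x hx1 y (mem_J.1 hy).1).1 hs, ← hl σ hσ y hy, ← hc σ hσ y hy]
    exact cls_mem σ (e σ y)
  · rw [Finset.prod_const]
    exact le_of_eq rfl

theorem cnt_pairs_le (hB : Y.Bounds π τ q N) (hQ1 : Fintype.card T ≤ Q)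
    (hQ2 : (blkPairs π).card ≤ Q) (hj : 1 ≤ j) (𝒜 : Finset Y.Matching)
    (h : ∀ σ ∈ 𝒜, IsRz Y z P σ (e σ)) :
    cnt 𝒜 (fun σ => (P.J j).image (fun x => (e σ x, σ.1 (e σ x)))) ≤
      Q ^ P.nFree j * Fintype.card C ^ P.nRun j * (N + 1) ^ P.nU j * (q + 1) ^ P.nLeaf j *
        ((q + 1) * N + 1) ^ P.nW j := by
  classical
  let k1 := res (Fr P j) (fun σ x => ((e σ x).1.2, (e σ (snd P x)).1.2))
  let k2 := res (Rn P j) (fun σ x => Y.col (e σ x).1.1)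
  let k3 := res (RU P j) (fun σ x => (e σ x).1.1)
  let k4 := res (RW P j) (fun (σ : Y.Matching) x => (σ.1 (e σ x)).1.1)
  have d1 : ∀ σ ∈ 𝒜, ∀ σ' ∈ 𝒜, k1 σ = k1 σ' → ∀ x ∈ P.J j, (e σ x).1.2 = (e σ' x).1.2 := by
    intro σ hσ σ' hσ' hk x hx
    obtain ⟨hx1, hx2⟩ := mem_J.1 hx
    refine letters_det hB (h σ hσ) (h σ' hσ') (fun y hy r1 r2 r3 => ?_) x hx1
      (hx2.trans ((h σ hσ).mult_le_mW hx1))
    have := (res_eq_iff _ _ _ _).1 hk y (Finset.mem_filter.2 ⟨hy, r1, r2, r3⟩)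
    exact Prod.mk.inj this
  have d2 : ∀ σ ∈ 𝒜, ∀ σ' ∈ 𝒜, k1 σ = k1 σ' → k2 σ = k2 σ' →
      ∀ x ∈ P.J j, Y.col (e σ x).1.1 = Y.col (e σ' x).1.1 := by
    intro σ hσ σ' hσ' hk hk2
    exact colours_det hB (h σ hσ) (h σ' hσ') (d1 σ hσ σ' hσ' hk)
      (fun y hy r => (res_eq_iff _ _ _ _).1 hk2 y (Finset.mem_filter.2 ⟨hy, r⟩))
  have s1 : cnt 𝒜 k1 ≤ Q ^ P.nFree j := stage1 hB hQ1 hQ2 𝒜 h
  have s2 : cnt 𝒜 (fun σ => (k1 σ, k2 σ)) ≤ cnt 𝒜 k1 * Fintype.card C ^ P.nRun j :=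
    cnt_pair_le 𝒜 k1 k2 _ fun _ _ _ _ => stage2 _
  have s3 : cnt 𝒜 (fun σ => ((k1 σ, k2 σ), k3 σ)) ≤
      cnt 𝒜 (fun σ => (k1 σ, k2 σ)) * ((N + 1) ^ P.nU j * (q + 1) ^ P.nLeaf j) := by
    refine cnt_pair_le 𝒜 (fun σ => (k1 σ, k2 σ)) k3 _ fun σ0 hσ0 ℬ hℬ => ?_
    refine stage3 hB _ (fun σ hσ => h σ (hℬ σ hσ).1) (fun x => (e σ0 x).1.2)
      (fun x => Y.col (e σ0 x).1.1) (fun σ hσ => ?_) (fun σ hσ => ?_)
    · obtain ⟨a1, a2⟩ := hℬ σ hσ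
      exact d1 σ a1 σ0 hσ0 (Prod.mk.inj a2).1
    · obtain ⟨a1, a2⟩ := hℬ σ hσ
      exact d2 σ a1 σ0 hσ0 (Prod.mk.inj a2).1 (Prod.mk.inj a2).2
  have s4 : cnt 𝒜 (fun σ => (((k1 σ, k2 σ), k3 σ), k4 σ)) ≤
      cnt 𝒜 (fun σ => ((k1 σ, k2 σ), k3 σ)) * ((q + 1) * N + 1) ^ P.nW j := by
    refine cnt_pair_le 𝒜 (fun σ => ((k1 σ, k2 σ), k3 σ)) k4 _ fun σ0 hσ0 ℬ hℬ => ?_
    refine stage4 hB hj _ (fun σ hσ => h σ (hℬ σ hσ).1) (fun x => (e σ0 x).1.2)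
      (fun x => Y.col (e σ0 x).1.1) (fun σ hσ => ?_) (fun σ hσ => ?_)
    · obtain ⟨a1, a2⟩ := hℬ σ hσ
      exact d1 σ a1 σ0 hσ0 (Prod.mk.inj (Prod.mk.inj a2).1).1
    · obtain ⟨a1, a2⟩ := hℬ σ hσ
      exact d2 σ a1 σ0 hσ0 (Prod.mk.inj (Prod.mk.inj a2).1).1 (Prod.mk.inj (Prod.mk.inj a2).1).2
  have s0 : cnt 𝒜 (fun σ => (P.J j).image (fun x => (e σ x, σ.1 (e σ x)))) ≤
      cnt 𝒜 (fun σ => (((k1 σ, k2 σ), k3 σ), k4 σ)) := by
    refine cnt_le_of_det 𝒜 _ _ fun σ hσ σ' hσ' hk => ?_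
    obtain ⟨a, a4⟩ := Prod.mk.inj hk
    obtain ⟨a, a3⟩ := Prod.mk.inj a
    obtain ⟨a1, -⟩ := Prod.mk.inj a
    have b1 := d1 σ hσ σ' hσ' a1
    have b3 := uverts_det (h σ hσ) (h σ' hσ') (j := j)
      (fun y hy r => (res_eq_iff _ _ _ _).1 a3 y (Finset.mem_filter.2 ⟨hy, r⟩))
    have b4 := wverts_det (h σ hσ) (h σ' hσ') (j := j)
      (fun y hy r r' => (res_eq_iff _ _ _ _).1 a4 y (Finset.mem_filter.2 ⟨hy, r, r'⟩))
    refine Finset.image_congr fun x hx => ?_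
    have c1 : e σ x = e σ' x := Subtype.ext (Prod.ext (b3 x hx) (b1 x hx))
    refine Prod.ext c1 (Subtype.ext (Prod.ext (b4 x hx) ?_))
    simp only
    rw [σ.2, σ'.2, c1]
  calc _ ≤ _ := s0
    _ ≤ _ := s4
    _ ≤ cnt 𝒜 (fun σ => (k1 σ, k2 σ)) * ((N + 1) ^ P.nU j * (q + 1) ^ P.nLeaf j) *
        ((q + 1) * N + 1) ^ P.nW j := Nat.mul_le_mul_right _ s3
    _ ≤ Q ^ P.nFree j * Fintype.card C ^ P.nRun j * ((N + 1) ^ P.nU j * (q + 1) ^ P.nLeaf j) *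
        ((q + 1) * N + 1) ^ P.nW j :=
      Nat.mul_le_mul_right _ (Nat.mul_le_mul_right _ (s2.trans (Nat.mul_le_mul_right _ s1)))
    _ = _ := by ring

end Crest.Agent.R177.LevelCountAux
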