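import Mathlib

/-!
Counting the values of a key on a finite family, in stages.
-/

set_option autoImplicit false

namespace Crest.Agent.R177.LevelCountAux

open Classical in
/-- the number of values of `k` on `𝒜` -/
noncomputable def cnt {α β : Type} (𝒜 : Finset α) (k : α → β) : ℕ := (𝒜.image k).card

theorem cnt_le_of_det {α β γ : Type} (𝒜 : Finset α) (k : α → β) (k' : α → γ)
    (h : ∀ a ∈ 𝒜, ∀ a' ∈ 𝒜, k a = k a' → k' a = k' a') : cnt 𝒜 k' ≤ cnt 𝒜 k := by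
  classical
  unfold cnt
  rcases 𝒜.eq_empty_or_nonempty with rfl | ⟨a0, -⟩
  · simp
  have hex : ∀ b : β, ∃ c : γ, ∀ a ∈ 𝒜, k a = b → k' a = c := by
    intro b
    by_cases hb : ∃ a ∈ 𝒜, k a = b
    · obtain ⟨a, ha, rfl⟩ := hb
      exact ⟨k' a, fun a' ha' e => h a' ha' a ha e⟩
    · exact ⟨k' a0, fun a ha e => absurd ⟨a, ha, e⟩ hb⟩
  choose F hF using hex
  refine le_trans (Finset.card_le_card ?_) (Finset.card_image_le (f := F))
  intro c hc
  obtain ⟨a, ha, rfl⟩ := Finset.mem_image.1 hc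
  exact Finset.mem_image.2 ⟨k a, Finset.mem_image_of_mem _ ha, (hF _ a ha rfl).symm⟩

open Classical in
theorem cnt_pair_le {α β γ : Type} (𝒜 : Finset α) (k : α → β) (k' : α → γ) (n : ℕ)
    (h : ∀ a0 ∈ 𝒜, ∀ ℬ : Finset α, (∀ a ∈ ℬ, a ∈ 𝒜 ∧ k a = k a0) → cnt ℬ k' ≤ n) :
    cnt 𝒜 (fun a => (k a, k' a)) ≤ cnt 𝒜 k * n := by
  unfold cnt
  have h1 := Finset.card_le_mul_card_image (f := Prod.fst)
    (𝒜.image (fun a => (k a, k' a))) n (by
      intro b hb
      rw [Finset.image_image] at hb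
      obtain ⟨a0, ha0, rfl⟩ := Finset.mem_image.1 hb
      refine le_trans ?_ (h a0 ha0 (𝒜.filter (fun a => k a = k a0))
        fun a ha => Finset.mem_filter.1 ha)
      unfold cnt
      refine Finset.card_le_card_of_injOn Prod.snd ?_ ?_
      · intro x hx
        obtain ⟨hx1, hx2⟩ := Finset.mem_filter.1 (Finset.mem_coe.1 hx)
        obtain ⟨a, ha, rfl⟩ := Finset.mem_image.1 hx1
        exact Finset.mem_coe.2 (Finset.mem_image.2 ⟨a, Finset.mem_filter.2 ⟨ha, hx2⟩, rfl⟩)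
      · intro x hx y hy hxy
        have h1 := (Finset.mem_filter.1 (Finset.mem_coe.1 hx)).2
        have h2 := (Finset.mem_filter.1 (Finset.mem_coe.1 hy)).2
        exact Prod.ext (h1.trans h2.symm) hxy)
  rw [Finset.image_image] at h1
  rw [mul_comm]
  convert h1 using 4
  rfl

/-- restriction of a family of functions to a finite index set -/
def res {α ι β : Type} (I : Finset ι) (f : α → ι → β) (a : α) : I → β := fun i => f a i

theorem res_eq_iff {α ι β : Type} (I : Finset ι) (f : α → ι → β) (a a' : α) :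
    res I f a = res I f a' ↔ ∀ i ∈ I, f a i = f a' i :=
  ⟨fun h i hi => congrFun h ⟨i, hi⟩, fun h => funext fun i => h i i.2⟩

theorem cnt_res_le {α ι β : Type} (𝒜 : Finset α) (I : Finset ι) (f : α → ι → β)
    (b : ι → ℕ) (h : ∀ i ∈ I, ∃ S : Finset β, S.card ≤ b i ∧ ∀ a ∈ 𝒜, f a i ∈ S) :
    cnt 𝒜 (res I f) ≤ ∏ i ∈ I, b i := by
  classical
  have h' : ∀ i : I, ∃ S : Finset β, S.card ≤ b i ∧ ∀ a ∈ 𝒜, f a i ∈ S := fun i => h i i.2
  choose S hS1 hS2 using h'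
  unfold cnt
  refine le_trans (Finset.card_le_card (t := Fintype.piFinset S) ?_) ?_
  · intro x hx
    simp only [Finset.mem_image] at hx
    obtain ⟨a, ha, rfl⟩ := hx
    exact Fintype.mem_piFinset.2 fun i => hS2 i a ha
  · rw [Fintype.card_piFinset, ← Finset.prod_coe_sort I b]
    exact Finset.prod_le_prod' fun i _ => hS1 i

open Classical in
theorem card_mul_le_cnt_mul {α β : Type} (𝒜 : Finset α) (k : α → β) (X n : ℕ)
    (h : ∀ a0 ∈ 𝒜, ∀ ℬ : Finset α, (∀ a ∈ ℬ, a ∈ 𝒜 ∧ k a = k a0) → ℬ.card * X ≤ n) :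
    𝒜.card * X ≤ cnt 𝒜 k * n := by
  unfold cnt
  rw [Finset.card_eq_sum_card_image k 𝒜, Finset.sum_mul]
  refine le_trans (Finset.sum_le_card_nsmul _ _ n ?_) (by simp)
  intro b hb
  obtain ⟨a0, ha0, rfl⟩ := Finset.mem_image.1 hb
  exact h a0 ha0 _ fun a ha => Finset.mem_filter.1 ha

/-- every class has a first element -/
theorem exists_rep {K : ℕ} {β : Type} (D : Finset (Fin K × ℕ)) (k : Fin K × ℕ → β)
    (R : Fin K × ℕ → Fin K × ℕ → Prop) (hR : ∀ x ∈ D, ∀ y ∈ D, R x y ↔ k x = k y)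
    {x : Fin K × ℕ} (hx : x ∈ D) :
    ∃ x0 ∈ D, k x = k x0 ∧ ∀ y ∈ D, R x0 y → toLex x0 ≤ toLex y := by
  classical
  obtain ⟨x0, h0, hmin⟩ := Finset.exists_min_image (D.filter (fun y => k x = k y))
    (fun y => toLex y) ⟨x, by simp [hx]⟩
  obtain ⟨h1, h2⟩ := Finset.mem_filter.1 h0
  refine ⟨x0, h1, h2, fun y hy hr => hmin y (Finset.mem_filter.2 ⟨hy, ?_⟩)⟩
  exact h2.trans ((hR x0 h1 y hy).1 hr)

end Crest.Agent.R177.LevelCountAux
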