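import Crest.Agent.R177.DefsPat
import Crest.Agent.R177.LevelCount.Cnt

/-!
Realisations of a pattern in the graph of a matching, and the determination lemmas.
-/

set_option autoImplicit false

namespace Crest.Agent.R177.LevelCountAux

open Equiv

variable {T C U W : Type}

/-- `e` realises the pattern `P` in the graph of `σ` -/
structure IsRz (Y : SlotSys T C U W) (z : U) {K : ℕ} (P : Pat K) (σ : Y.Matching)
    (e : Fin K × ℕ → Y.E) : Prop where
  hU : ∀ x ∈ darts P.len, ∀ y ∈ darts P.len, P.sameU x y ↔ (e x).1.1 = (e y).1.1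
  hW : ∀ x ∈ darts P.len, ∀ y ∈ darts P.len, P.sameW x y ↔ (σ.1 (e x)).1.1 = (σ.1 (e y)).1.1
  hE : ∀ x ∈ darts P.len, ∀ y ∈ darts P.len, P.sameE x y ↔ e x = e y
  hZ : ∀ x ∈ darts P.len, P.uPos x ∈ P.Z ↔ (e x).1.1 = z
  stepW : ∀ p i, i + 1 < P.len p → P.o (p, i) = true →
    (σ.1 (e (p, i))).1.1 = (σ.1 (e (p, i + 1))).1.1
  stepU : ∀ p i, i + 1 < P.len p → P.o (p, i) = false → (e (p, i)).1.1 = (e (p, i + 1)).1.1
  stepE : ∀ p i, i + 1 < P.len p → e (p, i) ≠ e (p, i + 1)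
  hpr : ∀ x y, P.pr x = some y → y ∈ darts P.len ∧ (e y).1.2 = (e x).1.2 ∧ P.o y = !P.o x

theorem o_succ {K : ℕ} (P : Pat K) (p : Fin K) (i : ℕ) : P.o (p, i + 1) = !P.o (p, i) := by
  simp only [Pat.o]
  rcases Nat.mod_two_eq_zero_or_one i with h | h
  · have : (i + 1) % 2 = 1 := by omega
    simp [h, this]
  · have : (i + 1) % 2 = 0 := by omega
    simp [h, this]

theorem isRz_of_config {Y : SlotSys T C U W} {z : U} {K B L0 M : ℕ} {σ : Y.Matching}
    (hg : (Y.graph σ).GirthGt 2) (c : Config (Y.graph σ) (Sum.inl z) K B L0 M) :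
    IsRz Y z c.pat σ (fun x => (c.ed x).1) := by
  have hb := Y.graph_bip σ
  refine ⟨fun x hx y hy => ?_, fun x hx y hy => ?_, fun x hx y hy => ?_, fun x hx => ?_,
    fun p i hi ho => ?_, fun p i hi ho => ?_, fun p i hi => ?_, fun x y hxy => ?_⟩
  · rw [c.pat_sameU hb (by simpa using hx) (by simpa using hy)]
    simp [SlotSys.graph]
  · rw [c.pat_sameW hb (by simpa using hx) (by simpa using hy)]
    simp [SlotSys.graph]
  · exact c.pat_sameE hb hg (by simpa using hx) (by simpa using hy)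
  · rw [c.pat_uPos_mem_Z hb (by simpa using hx)]
    simp [SlotSys.graph]
  · simp only [Config.pat_len] at hi
    have h1 := c.walk p i hi
    have h2 := c.pat_o hb (x := (p, i)) (by simp only; omega)
    have h3 := c.ori_succ hb p i hi
    rw [ho] at h2
    rw [← h2] at h3
    simpa [LG.en, LG.st, ← h2, h3, SlotSys.graph] using h1
  · simp only [Config.pat_len] at hi
    have h1 := c.walk p i hi
    have h2 := c.pat_o hb (x := (p, i)) (by simp only; omega)
    have h3 := c.ori_succ hb p i hi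
    rw [ho] at h2
    rw [← h2] at h3
    simpa [LG.en, LG.st, ← h2, h3, SlotSys.graph] using h1
  · simp only [Config.pat_len] at hi
    intro h
    refine c.nb p i hi (Prod.ext h.symm ?_)
    exact c.ori_succ hb p i hi
  · simp only [Config.pat_pr] at hxy
    have hx := c.pr_dom x y hxy
    have hy := c.pr_dom y x (c.pr_symm x y hxy)
    have hl := c.pr_lab x y hxy
    simp only [LG.lb, flp, SlotSys.graph, Prod.mk.injEq] at hl
    refine ⟨by simpa using hy, hl.1, ?_⟩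
    rw [c.pat_o hb hx, c.pat_o hb hy, hl.2]

section Slots

variable [Fintype T] [DecidableEq T] [Fintype C] [DecidableEq C] [Fintype U] [DecidableEq U]
  [Fintype W] [DecidableEq W] {Y : SlotSys T C U W} {π : Perm T} {τ : T → T → C → C} {q N : ℕ}

omit [Fintype T] [DecidableEq T] [Fintype C] [DecidableEq C] [Fintype U] [DecidableEq U]
  [Fintype W] [DecidableEq W] in
theorem cls_mem (σ : Y.Matching) (e : Y.E) : Y.cls e ∈ Y.slots (σ.1 e).1.1 := by
  have := (σ.1 e).2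
  rwa [σ.2 e] at this

omit [Fintype T] [DecidableEq T] [Fintype C] [DecidableEq C] [Fintype U] [DecidableEq U]
  [Fintype W] [DecidableEq W] in
theorem cls_ne (σ : Y.Matching) {e e' : Y.E} (hw : (σ.1 e).1.1 = (σ.1 e').1.1) (hne : e ≠ e') :
    Y.cls e ≠ Y.cls e' := by
  intro h
  refine hne (σ.1.injective (Subtype.ext (Prod.ext hw ?_)))
  rw [σ.2 e, σ.2 e', h]

theorem letter_ne (hB : Y.Bounds π τ q N) (σ : Y.Matching) {e e' : Y.E}
    (hw : (σ.1 e).1.1 = (σ.1 e').1.1) (hne : e ≠ e') : e.1.2 ≠ e'.1.2 := by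
  intro h
  exact cls_ne σ hw hne (hB.slots_inj _ _ (cls_mem σ e) _ (hw ▸ cls_mem σ e') h)

theorem letter_rel (hB : Y.Bounds π τ q N) (σ : Y.Matching) {e e' : Y.E}
    (hw : (σ.1 e).1.1 = (σ.1 e').1.1) (hne : e ≠ e') :
    e'.1.2 = π e.1.2 ∨ e.1.2 = π e'.1.2 :=
  hB.slots_blk _ _ (cls_mem σ e) _ (hw ▸ cls_mem σ e') (cls_ne σ hw hne)

theorem col_rel (hB : Y.Bounds π τ q N) (σ : Y.Matching) {e e' : Y.E}
    (hw : (σ.1 e).1.1 = (σ.1 e').1.1) (hne : e ≠ e') :
    Y.col e'.1.1 = τ e.1.2 e'.1.2 (Y.col e.1.1) :=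
  hB.slots_col _ _ (cls_mem σ e) _ (hw ▸ cls_mem σ e') (cls_ne σ hw hne)

omit [Fintype T] [DecidableEq T] in
theorem third_unique (π : Perm T) {s s' t t' : T} (hs : s' = π s ∨ s = π s')
    (ht : t = π s ∨ s = π t) (ht' : t' = π s ∨ s = π t') (h1 : s' ≠ t) (h2 : s' ≠ t') :
    t = t' := by
  rcases hs with hs | hs
  · have a1 : s = π t := ht.resolve_left fun h => h1 (hs.trans h.symm)
    have a2 : s = π t' := ht'.resolve_left fun h => h2 (hs.trans h.symm)
    exact π.injective (a1.symm.trans a2)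
  · have a1 : t = π s := ht.resolve_right fun h => h1 (π.injective (hs.symm.trans h))
    have a2 : t' = π s := ht'.resolve_right fun h => h2 (π.injective (hs.symm.trans h))
    exact a1.trans a2.symm

variable {z : U} {K : ℕ} {P : Pat K} {σ σ' : Y.Matching} {e e' : Fin K × ℕ → Y.E}

/-- two letters over different edges determine the letters at a connector -/
theorem letters_of_two (hB : Y.Bounds π τ q N) (h : IsRz Y z P σ e) (h' : IsRz Y z P σ' e')
    {x x' y : Fin K × ℕ} (hx : x ∈ darts P.len) (hx' : x' ∈ darts P.len) (hy : y ∈ darts P.len)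
    (hW : P.sameW x x') (hE : ¬ P.sameE x x') (hxy : P.sameW x y)
    (l1 : (e x).1.2 = (e' x).1.2) (l2 : (e x').1.2 = (e' x').1.2) :
    (e y).1.2 = (e' y).1.2 := by
  by_cases c1 : P.sameE x y
  · rw [← (h.hE x hx y hy).1 c1, ← (h'.hE x hx y hy).1 c1, l1]
  by_cases c2 : P.sameE x' y
  · rw [← (h.hE x' hx' y hy).1 c2, ← (h'.hE x' hx' y hy).1 c2, l2]
  have w1 := (h.hW x hx x' hx').1 hW
  have w2 := (h.hW x hx y hy).1 hxy
  have w1' := (h'.hW x hx x' hx').1 hW
  have w2' := (h'.hW x hx y hy).1 hxy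
  have r1 := letter_rel hB σ w1 (fun a => hE ((h.hE x hx x' hx').2 a))
  have r2 := letter_rel hB σ w2 (fun a => c1 ((h.hE x hx y hy).2 a))
  have r3 := letter_rel hB σ' w2' (fun a => c1 ((h'.hE x hx y hy).2 a))
  have n1 := letter_ne hB σ (w1.symm.trans w2) (fun a => c2 ((h.hE x' hx' y hy).2 a))
  have n2 := letter_ne hB σ' (w1'.symm.trans w2') (fun a => c2 ((h'.hE x' hx' y hy).2 a))
  rw [← l1] at r3
  rw [← l2] at n2
  exact third_unique π r1 r2 r3 n1 n2

end Slots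

section Pattern

variable {Y : SlotSys T C U W} {z : U} {K : ℕ} {P : Pat K} {σ : Y.Matching}
  {e : Fin K × ℕ → Y.E}

theorem IsRz.mW_congr (h : IsRz Y z P σ e) {x y : Fin K × ℕ} (hx : x ∈ darts P.len)
    (hy : y ∈ darts P.len) (hxy : P.sameW x y) : P.mW x = P.mW y := by
  classical
  unfold Pat.mW
  congr 1
  refine Finset.filter_congr fun v hv => ?_
  rw [h.hW x hx v hv, h.hW y hy v hv, (h.hW x hx y hy).1 hxy]

theorem IsRz.mult_congr (h : IsRz Y z P σ e) {x y : Fin K × ℕ} (hx : x ∈ darts P.len)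
    (hy : y ∈ darts P.len) (hxy : e x = e y) : P.mult x = P.mult y := by
  classical
  unfold Pat.mult
  congr 1
  refine Finset.filter_congr fun v hv => ?_
  rw [h.hE x hx v hv, h.hE y hy v hv, hxy]

theorem IsRz.mult_le_mW (h : IsRz Y z P σ e) {x : Fin K × ℕ} (hx : x ∈ darts P.len) :
    P.mult x ≤ P.mW x := by
  classical
  unfold Pat.mW
  exact Finset.le_sup (f := P.mult) (Finset.mem_filter.2 ⟨hx, (h.hW x hx x hx).2 rfl⟩)

theorem IsRz.before_congr (h : IsRz Y z P σ e) {x x0 y : Fin K × ℕ} (hx : x ∈ darts P.len)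
    (hx0 : x0 ∈ darts P.len) (hxx : P.sameW x x0) (hb : P.before y x0) : P.before y x := by
  have hm := h.mW_congr hx hx0 hxx
  rcases hb with hb | ⟨hb1, y', hy', hb2, hb3⟩
  · exact Or.inl (hm ▸ hb)
  · refine Or.inr ⟨hb1.trans hm.symm, y', hy', hb2, fun x' hx' hs => hb3 x' hx' ?_⟩
    rw [h.hW x0 hx0 x' hx', ← (h.hW x hx x0 hx0).1 hxx]
    exact (h.hW x hx x' hx').1 hs

theorem IsRz.det_congr (h : IsRz Y z P σ e) {x x0 : Fin K × ℕ} (hx : x ∈ darts P.len)
    (hx0 : x0 ∈ darts P.len) (hxx : P.sameW x x0) (hd : P.det x0) : P.det x := by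
  obtain ⟨p, i, p', i', h1, h2, h3, h4, h5, h6⟩ := hd
  have hpi : (p, i) ∈ darts P.len := by simp only [mem_darts]; omega
  refine ⟨p, i, p', i', h1, h2, ?_, h4, h5, h.before_congr hx hx0 hxx h6⟩
  rw [h.hW x hx _ hpi, (h.hW x hx x0 hx0).1 hxx]
  exact (h.hW x0 hx0 _ hpi).1 h3

theorem before_trans (P : Pat K) {a b c : Fin K × ℕ} (h1 : P.before a b) (h2 : P.before b c) :
    P.before a c := by
  rcases h1 with h1 | ⟨e1, a', ha', s1, l1⟩
  · rcases h2 with h2 | ⟨e2, -⟩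
    · exact Or.inl (h2.trans h1)
    · exact Or.inl (e2 ▸ h1)
  · rcases h2 with h2 | ⟨e2, b', hb', s2, l2⟩
    · exact Or.inl (e1 ▸ h2)
    · exact Or.inr ⟨e1.trans e2, a', ha', s1, fun x' hx' hs =>
        (l1 b' hb' s2).trans (l2 x' hx' hs)⟩

theorem before_irrefl (P : Pat K) (a : Fin K × ℕ) : ¬ P.before a a := by
  rintro (h | ⟨-, a', ha', s1, l1⟩)
  · exact lt_irrefl _ h
  · exact lt_irrefl _ (l1 a' ha' s1)

theorem before_mW (P : Pat K) {a b : Fin K × ℕ} (h : P.before a b) : P.mW b ≤ P.mW a := by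
  rcases h with h | ⟨h, -⟩
  · exact h.le
  · exact h.ge

theorem mem_J {j : ℕ} {x : Fin K × ℕ} : x ∈ P.J j ↔ x ∈ darts P.len ∧ j ≤ P.mult x := by
  classical
  unfold Pat.J
  exact Finset.mem_filter

theorem exists_mem_J_of_le_mW {j : ℕ} (hj : 1 ≤ j) {x : Fin K × ℕ} (h : j ≤ P.mW x) :
    ∃ y ∈ P.J j, P.sameW x y := by
  classical
  unfold Pat.mW at h
  obtain ⟨y, hy, hle⟩ := (Finset.le_sup_iff (show (⊥ : ℕ) < j from hj)).1 h
  obtain ⟨hy1, hy2⟩ := Finset.mem_filter.1 hy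
  exact ⟨y, mem_J.2 ⟨hy1, hle⟩, hy2⟩

open Classical in
/-- a second dart at the same connector over another edge, if there is one -/
noncomputable def snd (P : Pat K) (x : Fin K × ℕ) : Fin K × ℕ :=
  if h : ∃ y ∈ darts P.len, P.sameW x y ∧ ¬ P.sameE x y then h.choose else x

theorem snd_spec (P : Pat K) (x : Fin K × ℕ) :
    (snd P x ∈ darts P.len ∧ P.sameW x (snd P x) ∧ ¬ P.sameE x (snd P x)) ∨
      (snd P x = x ∧ ∀ y ∈ darts P.len, P.sameW x y → P.sameE x y) := by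
  unfold snd
  split_ifs with h
  · exact Or.inl h.choose_spec
  · refine Or.inr ⟨rfl, fun y hy hs => ?_⟩
    by_contra hc
    exact h ⟨y, hy, hs, hc⟩

end Pattern

section Det

variable [Fintype T] [DecidableEq T] [Fintype C] [DecidableEq C] [Fintype U] [DecidableEq U]
  [Fintype W] [DecidableEq W] {Y : SlotSys T C U W} {π : Perm T} {τ : T → T → C → C} {q N : ℕ}
  {z : U} {K : ℕ} {P : Pat K} {σ σ' : Y.Matching} {e e' : Fin K × ℕ → Y.E}

/-- stage 1: the letters at the free connectors determine all letters of level `j` -/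
theorem letters_det (hB : Y.Bounds π τ q N) (h : IsRz Y z P σ e) (h' : IsRz Y z P σ' e') {j : ℕ}
    (hfree : ∀ x ∈ darts P.len, P.repW x → j ≤ P.mW x → ¬ P.det x →
      (e x).1.2 = (e' x).1.2 ∧ (e (snd P x)).1.2 = (e' (snd P x)).1.2) :
    ∀ x ∈ darts P.len, j ≤ P.mW x → (e x).1.2 = (e' x).1.2 := by
  classical
  have key : ∀ n : ℕ, ∀ x ∈ darts P.len, ((darts P.len).filter (fun y => P.before y x)).card = n →
      j ≤ P.mW x → ∀ y ∈ darts P.len, P.sameW x y → (e y).1.2 = (e' y).1.2 := by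
    intro n
    induction n using Nat.strong_induction_on with
    | _ n ih =>
      intro x hx hn hj y hy hxy
      by_cases hd : P.det x
      · obtain ⟨p, i, p', i', h1, h2, h3, h4, h5, h6⟩ := hd
        have hpi : (p, i) ∈ darts P.len := by simp only [mem_darts]; omega
        have hpi1 : (p, i + 1) ∈ darts P.len := by simp only [mem_darts]; omega
        obtain ⟨a1, a2, a3⟩ := h.hpr _ _ h4
        obtain ⟨b1, b2, b3⟩ := h.hpr _ _ h5
        obtain ⟨-, a2', -⟩ := h'.hpr _ _ h4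
        obtain ⟨-, b2', -⟩ := h'.hpr _ _ h5
        have ho : P.o (p', i') = true := by rw [b3, o_succ, h2]; rfl
        have hlt : ((darts P.len).filter (fun y => P.before y (p', i'))).card < n := by
          rw [← hn]
          refine Finset.card_lt_card ⟨fun v hv => ?_, fun hc => ?_⟩
          · obtain ⟨v1, v2⟩ := Finset.mem_filter.1 hv
            exact Finset.mem_filter.2 ⟨v1, before_trans P v2 h6⟩
          · have := hc (Finset.mem_filter.2 ⟨b1, h6⟩)
            exact before_irrefl P _ (Finset.mem_filter.1 this).2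
        have ih' := ih _ hlt (p', i') b1 rfl (hj.trans (before_mW P h6))
        have c1 := ih' (p', i') b1 ((h.hW _ b1 _ b1).2 rfl)
        have c2 := ih' (p', i' + 1) a1
          ((h.hW _ b1 _ a1).2 (h.stepW p' i' (by simpa using a1) ho))
        refine letters_of_two hB h h' hpi hpi1 hy ((h.hW _ hpi _ hpi1).2 (h.stepW p i h1 h2))
          (fun hc => h.stepE p i h1 ((h.hE _ hpi _ hpi1).1 hc)) ?_ ?_ ?_
        · rw [h.hW _ hpi _ hy, ← (h.hW x hx _ hpi).1 h3]
          exact (h.hW x hx y hy).1 hxy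
        · rw [← a2, ← a2', c2]
        · rw [← b2, ← b2', c1]
      · obtain ⟨x0, hx0, e0, hrep⟩ := exists_rep (darts P.len) (fun v => (σ.1 (e v)).1.1)
          P.sameW h.hW hx
        have s0 : P.sameW x x0 := (h.hW x hx x0 hx0).2 e0
        have hj0 : j ≤ P.mW x0 := h.mW_congr hx hx0 s0 ▸ hj
        obtain ⟨f1, f2⟩ := hfree x0 hx0 hrep hj0 (fun hc => hd (h.det_congr hx hx0 s0 hc))
        have s1 : P.sameW x0 y := by
          rw [h.hW x0 hx0 y hy, ← e0]
          exact (h.hW x hx y hy).1 hxy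
        rcases snd_spec P x0 with ⟨g1, g2, g3⟩ | ⟨-, g2⟩
        · exact letters_of_two hB h h' hx0 g1 hy g2 g3 s1 f1 f2
        · have := g2 y hy s1
          rw [← (h.hE x0 hx0 y hy).1 this, ← (h'.hE x0 hx0 y hy).1 this, f1]
  intro x hx hj
  exact key _ x hx rfl hj x hx ((h.hW x hx x hx).2 rfl)

/-- stage 2: the colours at the run starts determine all colours of level `j` -/
theorem colours_det (hB : Y.Bounds π τ q N) (h : IsRz Y z P σ e) (h' : IsRz Y z P σ' e') {j : ℕ}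
    (hl : ∀ x ∈ P.J j, (e x).1.2 = (e' x).1.2)
    (hrun : ∀ x ∈ P.J j, (x.2 = 0 ∨ (x.1, x.2 - 1) ∉ P.J j) →
      Y.col (e x).1.1 = Y.col (e' x).1.1) :
    ∀ x ∈ P.J j, Y.col (e x).1.1 = Y.col (e' x).1.1 := by
  rintro ⟨p, i⟩
  induction i with
  | zero => intro hx; exact hrun _ hx (Or.inl rfl)
  | succ i ih =>
    intro hx
    by_cases hp : (p, i) ∈ P.J j
    · have hi : i + 1 < P.len p := by simpa using (mem_J.1 hx).1
      have ih' := ih hp
      cases ho : P.o (p, i)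
      · rw [← h.stepU p i hi ho, ← h'.stepU p i hi ho, ih']
      · rw [col_rel hB σ (h.stepW p i hi ho) (h.stepE p i hi),
          col_rel hB σ' (h'.stepW p i hi ho) (h'.stepE p i hi), ih', hl _ hp, hl _ hx]
    · exact hrun _ hx (Or.inr (by simpa using hp))

omit [Fintype T] [DecidableEq T] [Fintype C] [DecidableEq C] [Fintype U] [DecidableEq U]
  [Fintype W] [DecidableEq W] in
/-- stage 3 -/
theorem uverts_det (h : IsRz Y z P σ e) (h' : IsRz Y z P σ' e') {j : ℕ}
    (hrep : ∀ x ∈ P.J j, P.repU j x → (e x).1.1 = (e' x).1.1) :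
    ∀ x ∈ P.J j, (e x).1.1 = (e' x).1.1 := by
  intro x hx
  obtain ⟨x0, hx0, e0, hr⟩ := exists_rep (P.J j) (fun v => (e v).1.1) P.sameU
    (fun a ha b hb => h.hU a (mem_J.1 ha).1 b (mem_J.1 hb).1) hx
  have s0 := (h.hU x (mem_J.1 hx).1 x0 (mem_J.1 hx0).1).2 e0
  have e1 := (h'.hU x (mem_J.1 hx).1 x0 (mem_J.1 hx0).1).1 s0
  rw [e1, ← hrep x0 hx0 hr]
  exact e0

omit [Fintype T] [DecidableEq T] [Fintype C] [DecidableEq C] [Fintype U] [DecidableEq U]
  [Fintype W] [DecidableEq W] in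
/-- stage 4 -/
theorem wverts_det (h : IsRz Y z P σ e) (h' : IsRz Y z P σ' e') {j : ℕ}
    (hrep : ∀ x ∈ darts P.len, P.repW x → j ≤ P.mW x →
      (σ.1 (e x)).1.1 = (σ'.1 (e' x)).1.1) :
    ∀ x ∈ P.J j, (σ.1 (e x)).1.1 = (σ'.1 (e' x)).1.1 := by
  intro x hx
  obtain ⟨hx1, hx2⟩ := mem_J.1 hx
  obtain ⟨x0, hx0, e0, hr⟩ := exists_rep (darts P.len) (fun v => (σ.1 (e v)).1.1)
    P.sameW h.hW hx1
  have s0 := (h.hW x hx1 x0 hx0).2 e0
  have e1 := (h'.hW x hx1 x0 hx0).1 s0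
  have hj0 : j ≤ P.mW x0 := h.mW_congr hx1 hx0 s0 ▸ hx2.trans (h.mult_le_mW hx1)
  rw [e1, ← hrep x0 hx0 hr hj0]
  exact e0

omit [Fintype T] [Fintype C] [Fintype U] [Fintype W] in
theorem card_image_J (h : IsRz Y z P σ e) (j : ℕ) :
    ((P.J j).image (fun x => (e x, σ.1 (e x)))).card = P.nE j := by
  classical
  have h1 : (P.J j).image (fun x => (e x, σ.1 (e x))) =
      ((P.J j).filter (fun x => P.repE x)).image (fun x => (e x, σ.1 (e x))) := by
    refine Finset.Subset.antisymm (fun v hv => ?_)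
      (Finset.image_subset_image (Finset.filter_subset _ _))
    obtain ⟨x, hx, rfl⟩ := Finset.mem_image.1 hv
    obtain ⟨hx1, hx2⟩ := mem_J.1 hx
    obtain ⟨x0, hx0, e0, hr⟩ := exists_rep (darts P.len) e P.sameE h.hE hx1
    refine Finset.mem_image.2 ⟨x0, Finset.mem_filter.2 ⟨mem_J.2 ⟨hx0, ?_⟩, hr⟩, by rw [e0]⟩
    exact h.mult_congr hx1 hx0 e0 ▸ hx2
  rw [h1, Finset.card_image_of_injOn]
  · unfold Pat.nE
    congr
  · intro x hx y hy hxy
    obtain ⟨hx1, hx2⟩ := Finset.mem_filter.1 (Finset.mem_coe.1 hx)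
    obtain ⟨hy1, hy2⟩ := Finset.mem_filter.1 (Finset.mem_coe.1 hy)
    have e0 : e x = e y := congrArg Prod.fst hxy
    have a1 := hx2 y (mem_J.1 hy1).1 ((h.hE x (mem_J.1 hx1).1 y (mem_J.1 hy1).1).2 e0)
    have a2 := hy2 x (mem_J.1 hx1).1 ((h.hE y (mem_J.1 hy1).1 x (mem_J.1 hx1).1).2 e0.symm)
    exact toLex.injective (le_antisymm a1 a2)

end Det

end Crest.Agent.R177.LevelCountAux
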